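import Vale.Agent.P261.R2.H932.Stmt

/-!
# P261: higher cohomology, definitions used in the statement (helper398)
-/

namespace Vale.Agent.P261.St

open MvPowerSeries Vale.Agent.P217.LT Topology

section

variable {p n : ℕ} [Fact p.Prime] {G : Type}

/-- The action of `G` on the free `E₀`-module of rank one `L_k = π_{2k} E_n ⊗ ω^i`, where `ω(x)` is
the Teichmüller lift of `g'(0) mod 𝔪`: `r ↦ ω(x)^i * g'(0)^k * φ(r)`. -/
noncomputable def omegaTwist (a : G → Pair p n) (i : ℕ) (k : ℤ) (x : G) (r : E0 p n) : E0 p n :=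
  MvPowerSeries.C (WittVector.teichmuller p (red p n (PowerSeries.coeff 1 (a x).g))) ^ i *
    twist a k x r

variable {M : Type} [AddCommGroup M]

/-- The differential of inhomogeneous cochains. -/
def coboundary [Group G] (ρ : G → M → M) (j : ℕ) (c : (Fin j → G) → M) (x : Fin (j + 1) → G) : M :=
  ρ (x 0) (c fun i => x i.succ) +
    ∑ i : Fin (j + 1), (-1 : ℤ) ^ ((i : ℕ) + 1) • c (Fin.contractNth i (· * ·) x)

end

section

variable (p n : ℕ) [Fact p.Prime] {G : Type} {M : Type} [AddCommGroup M] [Module (E0 p n) M]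

/-- The continuous cochains, for the `I_n`-adic topology of `M`. -/
def IsCochain [TopologicalSpace G] {j : ℕ} (c : (Fin j → G) → M) : Prop :=
  ∀ (k : ℕ) (x : Fin j → G),
    ∀ᶠ y in 𝓝 x, c y - c x ∈ (heightIdeal p n n ^ k • ⊤ : Submodule (E0 p n) M)

/-- `H^(j+1)`, the cohomology of the complex of continuous cochains in degree `j + 1`, is a finitely
generated `ℤ_p`-module. -/
def HFG [TopologicalSpace G] [Group G] (ρ : G → M → M) (j : ℕ) : Prop :=
  ∃ (d : ℕ) (e : Fin d → (Fin (j + 1) → G) → M),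
    (∀ i, IsCochain p n (e i) ∧ coboundary ρ (j + 1) (e i) = 0) ∧
    ∀ c : (Fin (j + 1) → G) → M, IsCochain p n c → coboundary ρ (j + 1) c = 0 →
      ∃ (b : Fin d → ℤ_[p]) (c' : (Fin j → G) → M), IsCochain p n c' ∧
        c = (∑ i, zp p n (b i) • e i) + coboundary ρ j c'

end

end Vale.Agent.P261.St
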