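import Vale.Agent.P261.R2.H823.Facts
import Vale.Agent.P261.R2.H932.Transfer2
import Vale.Agent.P261.R2.H398.A
import Vale.Agent.P261.R2.H398.B
import Vale.Agent.P261.R2.H398.Stmt2

/-!
# P261: the modules `L_k / I_h` and their cochains (helper398)
-/

namespace Vale.Agent.P261.R2.H398

open MvPowerSeries Vale.Agent.P217 Vale.Agent.P261 Vale.Agent.P261.R2.H932
  Vale.Agent.P261.R2.H823 Topology

variable {p n : ℕ} [Fact p.Prime] {Γ : FormalGroup (ZMod p)} {F : FormalGroup (LT.E0 p n)}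

/-- the power of the leading coefficient. -/
noncomputable def tk (k : ℤ) (x : Gn p n F) : LT.E0 p n :=
  (((Gn.isUnit_t x).unit ^ k : (LT.E0 p n)ˣ) : LT.E0 p n)

theorem tk_mul (k : ℤ) (x y : Gn p n F) : tk k (x * y) = tk k x * Gn.pi x (tk k y) := by
  have h := Gn.tw_mul k x y 1
  rw [Gn.tw, Gn.tw, Gn.tw, map_one, mul_one, map_one, mul_one] at h
  exact h

theorem tk_one (k : ℤ) : tk k (1 : Gn p n F) = 1 := by
  have h := Gn.tw_one (F := F) k 1
  rw [Gn.tw, map_one, mul_one] at h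
  exact h

/-- the coefficient of the action on `L_k`. -/
noncomputable def cf (i : ℕ) (k : ℤ) (x : Gn p n F) : LT.E0 p n := ww x ^ i * tk k x

theorem cf_mul (hn1 : 1 ≤ n) (i : ℕ) (k : ℤ) (x y : Gn p n F) :
    cf i k (x * y) = cf i k x * Gn.pi x (cf i k y) := by
  rw [cf, cf, cf, ww_mul hn1, tk_mul, map_mul, map_pow]
  ring

theorem cf_one (i : ℕ) (k : ℤ) : cf i k (1 : Gn p n F) = 1 := by
  rw [cf, ww_one, tk_one, one_pow, one_mul]

theorem cf_trans (hF : LT.IsUniversal p n Γ F) (hA : LT.HeightAdapted p n F) (h : ℕ) (hle : h ≤ n)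
    (i : ℕ) (k : ℤ) (x : Gn p n F) :
    cf i k x * Gn.pi x (lead F h) - lead F h * cf i (k - ((p ^ h - 1 : ℕ) : ℤ)) x ∈
      LT.heightIdeal p n h := by
  have h1 : tk k x = tk (k - ((p ^ h - 1 : ℕ) : ℤ)) x * Gn.t x ^ (p ^ h - 1) := by
    have h2 : (Gn.isUnit_t x).unit ^ k = (Gn.isUnit_t x).unit ^ (k - ((p ^ h - 1 : ℕ) : ℤ)) *
        (Gn.isUnit_t x).unit ^ (p ^ h - 1) := by
      rw [← zpow_natCast (Gn.isUnit_t x).unit (p ^ h - 1), ← zpow_add, sub_add_cancel]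
    rw [tk, tk, h2, Units.val_mul, Units.val_pow_eq_pow_val]
    rfl
  have h3 : cf i k x * Gn.pi x (lead F h) - lead F h * cf i (k - ((p ^ h - 1 : ℕ) : ℤ)) x =
      cf i (k - ((p ^ h - 1 : ℕ) : ℤ)) x *
        (Gn.pi x (lead F h) * Gn.t x ^ (p ^ h - 1) - lead F h) := by
    rw [cf, cf, h1]
    ring
  rw [h3]
  exact Ideal.mul_mem_left _ _ (trans hF hA h hle x)

theorem pi_mem_pow (hA : LT.HeightAdapted p n F) (h : ℕ) (hle : h ≤ n) (K : ℕ) (x : Gn p n F)
    {r : LT.E0 p n} (hr : r ∈ LT.heightIdeal p n h ^ K) :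
    Gn.pi x r ∈ LT.heightIdeal p n h ^ K := by
  have h1 := isInvariant_heightIdeal_of_adapted (LTC.heightAdapted_iff.1 hA) h hle
    (Gn.pi x) x.1.2 x.iso
  have h2 := Ideal.mem_map_of_mem ((Gn.pi x : RingAut (LT.E0 p n)) : LT.E0 p n →+* LT.E0 p n) hr
  rw [Ideal.map_pow] at h2
  have h3 : (LT.heightIdeal p n h).map
      ((Gn.pi x : RingAut (LT.E0 p n)) : LT.E0 p n →+* LT.E0 p n) = LT.heightIdeal p n h := h1
  rw [h3] at h2
  exact h2

theorem pi_mem' (hA : LT.HeightAdapted p n F) (h : ℕ) (hle : h ≤ n) (x : Gn p n F)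
    {r : LT.E0 p n} (hr : r ∈ LT.heightIdeal p n h) :
    Gn.pi x r ∈ LT.heightIdeal p n h := by
  have h1 := pi_mem_pow hA h hle 1 x (r := r) (by rwa [pow_one])
  rwa [pow_one] at h1

/-- units congruent to one. -/
theorem zpow_sub_one {R : Type*} [CommRing R] (I : Ideal R) (u : Rˣ) (hu : (u : R) - 1 ∈ I)
    (k : ℤ) : ((u ^ k : Rˣ) : R) - 1 ∈ I := by
  have h1 : Units.map ((Ideal.Quotient.mk I : R →+* R ⧸ I) : R →* R ⧸ I) u = 1 := by
    apply Units.ext
    change Ideal.Quotient.mk I (u : R) = 1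
    rw [← map_one (Ideal.Quotient.mk I)]
    exact Ideal.Quotient.eq.2 hu
  have h2 : Units.map ((Ideal.Quotient.mk I : R →+* R ⧸ I) : R →* R ⧸ I) (u ^ k) = 1 := by
    rw [map_zpow, h1, one_zpow]
  have h3 : Ideal.Quotient.mk I ((u ^ k : Rˣ) : R) = 1 := congrArg Units.val h2
  rw [← map_one (Ideal.Quotient.mk I)] at h3
  exact Ideal.Quotient.eq.1 h3

theorem cf_sub_one (hn1 : 1 ≤ n) (i : ℕ) (k : ℤ) (K : ℕ) (hK : 1 ≤ K) (x : Gn p n F)
    (hx : Gn.t x - 1 ∈ LT.heightIdeal p n n ^ K) : cf i k x - 1 ∈ LT.heightIdeal p n n ^ K := by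
  have h1 : red p n (Gn.t x) = 1 := by
    have h2 : Gn.t x - 1 ∈ LT.heightIdeal p n n := Ideal.pow_le_self (by omega) hx
    have h3 := (mem_heightIdeal_top hn1 _).1 h2
    rw [map_sub, map_one, sub_eq_zero] at h3
    exact h3
  have h4 : ww x = 1 := by
    rw [ww, h1, tch_one]
  have h5 : (((Gn.isUnit_t x).unit : (LT.E0 p n)ˣ) : LT.E0 p n) - 1 ∈
      LT.heightIdeal p n n ^ K := by
    rw [IsUnit.unit_spec]
    exact hx
  rw [cf, h4, one_pow, one_mul, tk]
  exact zpow_sub_one _ _ h5 k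

section rep

variable {G M : Type} [Group G] [AddCommGroup M] [Module (LT.E0 p n) M] [Module ℤ_[p] M]
  (hs : ∀ (a : ℤ_[p]) (m : M), a • m = St.zp p n a • m)
  (hn1 : 1 ≤ n) (J : G →* Gn p n F) (q : LT.E0 p n →ₗ[LT.E0 p n] M) (hq : Function.Surjective q)
  (i : ℕ) (k : ℤ) (ρ : G → M → M)
  (hρ : ∀ x r, ρ x (q r) = q (cf i k (J x) * Gn.pi (J x) r))

/-- the representation. -/
noncomputable def repOf : Representation ℤ_[p] G M where
  toFun x :=
    { toFun := ρ x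
      map_add' := by
        intro m m'
        obtain ⟨r, rfl⟩ := hq m
        obtain ⟨r', rfl⟩ := hq m'
        rw [← map_add, hρ, hρ, hρ, map_add, mul_add, map_add]
      map_smul' := by
        intro a m
        obtain ⟨r, rfl⟩ := hq m
        rw [hs, ← map_smul, hρ, hρ, RingHom.id_apply, hs, ← map_smul, smul_eq_mul, smul_eq_mul,
          map_mul (Gn.pi (J x))]
        have h1 : Gn.pi (J x) (St.zp p n a) = St.zp p n a := H700.map_zp (Gn.pi (J x)) a
        rw [h1]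
        congr 1
        ring }
  map_one' := by
    ext m
    obtain ⟨r, rfl⟩ := hq m
    change ρ 1 (q r) = q r
    rw [hρ, map_one, cf_one, one_mul, map_one]
    rfl
  map_mul' := by
    intro x y
    ext m
    obtain ⟨r, rfl⟩ := hq m
    change ρ (x * y) (q r) = ρ x (ρ y (q r))
    rw [hρ, hρ, hρ, map_mul J, cf_mul hn1, map_mul Gn.pi, map_mul (Gn.pi (J x)), mul_assoc]
    rfl

theorem repOf_apply (x : G) (m : M) : repOf hs hn1 J q hq i k ρ hρ x m = ρ x m := rfl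

/-- the filtration. -/
noncomputable def Fl (K : ℕ) : Submodule ℤ_[p] M where
  carrier := {m | ∃ r ∈ LT.heightIdeal p n n ^ K, q r = m}
  zero_mem' := ⟨0, Ideal.zero_mem _, map_zero q⟩
  add_mem' := by
    rintro _ _ ⟨r, hr, rfl⟩ ⟨r', hr', rfl⟩
    exact ⟨r + r', Ideal.add_mem _ hr hr', map_add q _ _⟩
  smul_mem' := by
    rintro a _ ⟨r, hr, rfl⟩
    exact ⟨St.zp p n a * r, Ideal.mul_mem_left _ _ hr, by
      rw [hs, ← map_smul, smul_eq_mul]⟩

omit [Module ℤ_[p] M] in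
include hq in
theorem mem_smul_top (K : ℕ) (m : M) :
    m ∈ (LT.heightIdeal p n n ^ K • ⊤ : Submodule (LT.E0 p n) M) ↔
      ∃ r ∈ LT.heightIdeal p n n ^ K, q r = m := by
  have h1 : (LT.heightIdeal p n n ^ K • ⊤ : Submodule (LT.E0 p n) M) =
      Submodule.map q (LT.heightIdeal p n n ^ K) := by
    rw [← LinearMap.range_eq_top.2 hq, LinearMap.range_eq_map, ← Submodule.map_smul'',
      smul_eq_mul, Ideal.mul_top]
  rw [h1]
  rfl

theorem mem_Fl (K : ℕ) (m : M) : m ∈ Fl hs q K ↔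
    ∃ r ∈ LT.heightIdeal p n n ^ K, q r = m := Iff.rfl

include hq in
theorem isCochain_iff [TopologicalSpace G] {j : ℕ} (c : (Fin j → G) → M) :
    St.IsCochain p n c ↔ c ∈ Cont (G := G) (Fl hs q) j := by
  rw [mem_Cont]
  unfold St.IsCochain
  refine forall_congr' fun K => forall_congr' fun x => ?_
  refine Filter.eventually_congr (Filter.Eventually.of_forall fun y => ?_)
  rw [mem_Fl, mem_smul_top q hq]

theorem coboundary_eq (j : ℕ) (c : (Fin j → G) → M) :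
    St.coboundary ρ j c = dd (repOf hs hn1 J q hq i k ρ hρ) j c := by
  funext x
  rw [dd_apply, repOf_apply, St.coboundary]
  congr 1
  refine Finset.sum_congr rfl fun l _ => ?_
  rw [← Int.cast_smul_eq_zsmul ℤ_[p]]
  push_cast
  rfl

theorem HF_of_HFG [TopologicalSpace G] (j : ℕ) (h : St.HFG p n ρ j) :
    HF (repOf hs hn1 J q hq i k ρ hρ) (Cont (Fl hs q)) j := by
  obtain ⟨d, e, he, hall⟩ := h
  refine ⟨Submodule.span ℤ_[p] (Set.range e), Submodule.fg_span (Set.finite_range e), ?_, ?_⟩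
  · rw [Submodule.span_le]
    rintro _ ⟨l, rfl⟩
    refine ⟨(isCochain_iff hs q hq _).1 (he l).1, LinearMap.mem_ker.2 ?_⟩
    rw [← coboundary_eq]
    exact (he l).2
  · rintro c ⟨hc1, hc2⟩
    obtain ⟨b, c', hc', hc⟩ := hall c ((isCochain_iff hs q hq _).2 hc1) (by
      rw [coboundary_eq hs hn1 J q hq i k ρ hρ]
      exact LinearMap.mem_ker.1 hc2)
    rw [hc]
    refine Submodule.add_mem_sup (Submodule.sum_mem _ fun l _ => ?_) ?_
    · have h1 : St.zp p n (b l) • e l = b l • e l := by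
        funext x
        rw [Pi.smul_apply, Pi.smul_apply, hs]
      rw [h1]
      exact Submodule.smul_mem _ _ (Submodule.subset_span ⟨l, rfl⟩)
    · rw [coboundary_eq hs hn1 J q hq i k ρ hρ]
      exact Submodule.mem_map_of_mem ((isCochain_iff hs q hq _).1 hc')

theorem HFG_of_HF [TopologicalSpace G] (j : ℕ)
    (h : HF (repOf hs hn1 J q hq i k ρ hρ) (Cont (Fl hs q)) j) : St.HFG p n ρ j := by
  obtain ⟨S, hS, hSZ, hZS⟩ := h
  obtain ⟨d, e, rfl⟩ := Submodule.fg_iff_exists_fin_generating_family.1 hS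
  refine ⟨d, e, fun l => ?_, fun c hc1 hc2 => ?_⟩
  · obtain ⟨h1, h2⟩ := hSZ (Submodule.subset_span ⟨l, rfl⟩)
    refine ⟨(isCochain_iff hs q hq _).2 h1, ?_⟩
    rw [coboundary_eq hs hn1 J q hq i k ρ hρ]
    exact LinearMap.mem_ker.1 h2
  · have h1 := hZS (x := c) ⟨(isCochain_iff hs q hq _).1 hc1, LinearMap.mem_ker.2 (by
      rw [← coboundary_eq hs hn1 J q hq i k ρ hρ]
      exact hc2)⟩
    obtain ⟨y, hy, _, ⟨c', hc', rfl⟩, hyc⟩ := Submodule.mem_sup.1 h1
    obtain ⟨b, rfl⟩ := (Submodule.mem_span_range_iff_exists_fun ℤ_[p]).1 hy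
    refine ⟨b, c', (isCochain_iff hs q hq _).2 hc', ?_⟩
    rw [coboundary_eq hs hn1 J q hq i k ρ hρ, ← hyc]
    congr 1
    refine Finset.sum_congr rfl fun l _ => ?_
    funext x
    rw [Pi.smul_apply, Pi.smul_apply, hs]

end rep

end Vale.Agent.P261.R2.H398
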