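import Vale.Agent.P261.R2.H398.C

/-!
# P261: dévissage along `v_0, ..., v_(n-2)` (helper398)
-/

namespace Vale.Agent.P261.R2.H398

open MvPowerSeries Vale.Agent.P217 Vale.Agent.P261 Vale.Agent.P261.R2.H932
  Vale.Agent.P261.R2.H823 Topology

/-- Artin-Rees: multiplication by a nonzerodivisor is an embedding. -/
theorem exists_emb {R M : Type*} [CommRing R] [IsNoetherianRing R] [AddCommGroup M] [Module R M]
    [Module.Finite R M] (I : Ideal R) (v : R) (hinj : ∀ m : M, v • m = 0 → m = 0) (k : ℕ) :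
    ∃ K, ∀ m : M, v • m ∈ (I ^ K • ⊤ : Submodule R M) → m ∈ (I ^ k • ⊤ : Submodule R M) := by
  obtain ⟨c, hc⟩ := I.exists_pow_inf_eq_pow_smul (LinearMap.range (LinearMap.lsmul R M v))
  refine ⟨k + c, fun m hm => ?_⟩
  have h1 : v • m ∈ (I ^ (k + c) • ⊤ ⊓ LinearMap.range (LinearMap.lsmul R M v) :
      Submodule R M) := ⟨hm, ⟨m, rfl⟩⟩
  rw [hc (k + c) (Nat.le_add_left _ _), Nat.add_sub_cancel] at h1
  have h2 : v • m ∈ (I ^ k • LinearMap.range (LinearMap.lsmul R M v) : Submodule R M) :=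
    Submodule.smul_mono le_rfl inf_le_right h1
  rw [LinearMap.range_eq_map, ← Submodule.map_smul''] at h2
  obtain ⟨m', hm', h3⟩ := h2
  have h4 : m' = m := by
    refine sub_eq_zero.1 (hinj _ ?_)
    rw [smul_sub, sub_eq_zero]
    exact h3
  rw [← h4]
  exact hm'

variable {p n : ℕ} [Fact p.Prime] {Γ : FormalGroup (ZMod p)} {F : FormalGroup (LT.E0 p n)}

theorem top_eq_maximalIdeal (hn1 : 1 ≤ n) :
    LT.heightIdeal p n n = IsLocalRing.maximalIdeal (LT.E0 p n) := by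
  ext x
  have h1 := mem_heightIdeal_top (p := p) hn1 x
  have h2 : x ∈ IsLocalRing.maximalIdeal (LT.E0 p n) ↔ red p n x = 0 := by
    rw [CA.maximalIdeal_eq_ker]
    exact RingHom.mem_ker
  rw [h2]
  exact h1

theorem prec (hn1 : 1 ≤ n) (f : ℕ → LT.E0 p n)
    (hf : ∀ k, f (k + 1) - f k ∈ LT.heightIdeal p n n ^ k) :
    ∃ L, ∀ k, f k - L ∈ LT.heightIdeal p n n ^ k := by
  rw [top_eq_maximalIdeal hn1] at hf ⊢
  have h1 : IsAdicComplete (IsLocalRing.maximalIdeal (LT.E0 p n)) (LT.E0 p n) :=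
    CA.isAdicComplete_E0
  have h2 : ∀ {a b : ℕ}, a ≤ b → f a ≡ f b
      [SMOD (IsLocalRing.maximalIdeal (LT.E0 p n) ^ a • ⊤ : Submodule (LT.E0 p n) (LT.E0 p n))] := by
    intro a b hab
    rw [SModEq.sub_mem, smul_eq_mul, Ideal.mul_top]
    induction b, hab using Nat.le_induction with
    | base =>
      rw [sub_self]
      exact Ideal.zero_mem _
    | succ b hab ih =>
      have h3 : f a - f (b + 1) = (f a - f b) - (f (b + 1) - f b) := by ring
      rw [h3]
      exact Ideal.sub_mem _ ih (Ideal.pow_le_pow_right hab (hf b))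
  obtain ⟨L, hL⟩ := h1.prec' f h2
  refine ⟨L, fun k => ?_⟩
  have h4 := hL k
  rwa [SModEq.sub_mem, smul_eq_mul, Ideal.mul_top] at h4

theorem closed (hn1 : 1 ≤ n) (I : Ideal (LT.E0 p n)) (x : LT.E0 p n)
    (hx : ∀ k, x ∈ I ⊔ LT.heightIdeal p n n ^ k) : x ∈ I := by
  have h1 : LT.heightIdeal p n n ≠ ⊤ := by
    rw [top_eq_maximalIdeal hn1]
    exact Ideal.IsPrime.ne_top'
  have h2 := Ideal.iInf_pow_smul_eq_bot_of_isLocalRing (M := LT.E0 p n ⧸ I) _ h1
  have h3 : (Submodule.mkQ I x : LT.E0 p n ⧸ I) ∈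
      (⨅ k : ℕ, LT.heightIdeal p n n ^ k • ⊤ : Submodule (LT.E0 p n) (LT.E0 p n ⧸ I)) := by
    rw [Submodule.mem_iInf]
    intro k
    rw [mem_smul_top (Submodule.mkQ I) (Submodule.mkQ_surjective I)]
    obtain ⟨y, hy, z, hz, hyz⟩ := Submodule.mem_sup.1 (hx k)
    refine ⟨z, hz, ?_⟩
    rw [Submodule.mkQ_apply, Submodule.mkQ_apply, Submodule.Quotient.eq, ← hyz]
    have h4 : z - (y + z) = -y := by ring
    rw [h4]
    exact neg_mem hy
  rw [h2, Submodule.mem_bot, Submodule.mkQ_apply, Submodule.Quotient.mk_eq_zero] at h3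
  exact h3

section

variable (hn1 : 1 ≤ n) (hΓ : LT.IsHonda p n Γ) (hF : LT.IsUniversal p n Γ F)
  (hA : LT.HeightAdapted p n F) {G : Type} [Group G] [TopologicalSpace G] [ContinuousMul G]
  (J : G →* Gn p n F)
  (hcont : ∀ K, ∀ᶠ x in 𝓝 (1 : G), Gn.t (J x) - 1 ∈ LT.heightIdeal p n n ^ K ∧
    ∀ r, Gn.pi (J x) r - r ∈ LT.heightIdeal p n n ^ K)

include hn1 hΓ hF hA hcont

theorem step_cyc (h : ℕ) (hlt : h < n) {M M'' : Type} [AddCommGroup M] [Module (LT.E0 p n) M]
    [AddCommGroup M''] [Module (LT.E0 p n) M'']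
    (q : LT.E0 p n →ₗ[LT.E0 p n] M) (hq : Function.Surjective q)
    (hker : ∀ r, q r = 0 ↔ r ∈ LT.heightIdeal p n h)
    (q'' : LT.E0 p n →ₗ[LT.E0 p n] M'') (hq'' : Function.Surjective q'')
    (hker'' : ∀ r, q'' r = 0 ↔ r ∈ LT.heightIdeal p n (h + 1))
    (i : ℕ) (k : ℤ) (ρ' ρ : G → M → M) (ρ'' : G → M'' → M'')
    (hρ' : ∀ x r, ρ' x (q r) = q (cf i (k - ((p ^ h - 1 : ℕ) : ℤ)) (J x) * Gn.pi (J x) r))
    (hρ : ∀ x r, ρ x (q r) = q (cf i k (J x) * Gn.pi (J x) r))
    (hρ'' : ∀ x r, ρ'' x (q'' r) = q'' (cf i k (J x) * Gn.pi (J x) r))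
    (j : ℕ) (h1 : St.HFG p n ρ j) (h2 : St.HFG p n ρ' (j + 1)) : St.HFG p n ρ'' j := by
  let i1 : Module ℤ_[p] M := Module.compHom M (St.zp p n)
  let i2 : Module ℤ_[p] M'' := Module.compHom M'' (St.zp p n)
  have hs : ∀ (a : ℤ_[p]) (m : M), a • m = St.zp p n a • m := fun _ _ => rfl
  have hs'' : ∀ (a : ℤ_[p]) (m : M''), a • m = St.zp p n a • m := fun _ _ => rfl
  have hle : LT.heightIdeal p n h ≤ LT.heightIdeal p n (h + 1) := H260.heightIdeal_mono (Nat.le_succ h)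
  have hsucc := succ_eq hn1 hΓ hF hA h hlt
  have hv1 : lead F h ∈ LT.heightIdeal p n (h + 1) := by
    rw [hsucc]
    exact Ideal.mem_sup_right (Ideal.mem_span_singleton_self _)
  have hprime : (LT.heightIdeal p n h).IsPrime := isPrime_heightIdeal (by omega) h (by omega)
  have hfin : Module.Finite (LT.E0 p n) M := Module.Finite.of_surjective q hq
  have hinj0 : ∀ m : M, lead F h • m = 0 → m = 0 := by
    intro m hm
    obtain ⟨r, rfl⟩ := hq m
    rw [← map_smul, smul_eq_mul, hker] at hm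
    rw [hker]
    exact (hprime.mem_or_mem hm).resolve_left (lead_notMem hn1 hΓ hF hA h hlt)
  -- the maps
  let ι : M →ₗ[ℤ_[p]] M :=
    { toFun := fun m => lead F h • m
      map_add' := fun m m' => smul_add _ _ _
      map_smul' := fun a m => by
        rw [hs, RingHom.id_apply, hs, smul_comm] }
  have hι0 : ∀ m, ι m = lead F h • m := fun _ => rfl
  have hwd : ∀ r r', q r = q r' → q'' r = q'' r' := by
    intro r r' hr
    rw [← sub_eq_zero, ← map_sub, hker] at hr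
    rw [← sub_eq_zero, ← map_sub, hker'']
    exact hle hr
  let π0 : M → M'' := fun m => q'' (Function.surjInv hq m)
  have hπ0 : ∀ r, π0 (q r) = q'' r := fun r => hwd _ _ (Function.surjInv_eq hq (q r))
  let π : M →ₗ[ℤ_[p]] M'' :=
    { toFun := π0
      map_add' := fun m m' => by
        obtain ⟨r, rfl⟩ := hq m
        obtain ⟨r', rfl⟩ := hq m'
        rw [← map_add, hπ0, hπ0, hπ0, map_add]
      map_smul' := fun a m => by
        obtain ⟨r, rfl⟩ := hq m
        rw [hs, ← map_smul, hπ0, hπ0, map_smul, RingHom.id_apply, hs''] }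
  have hπq : ∀ r, π (q r) = q'' r := hπ0
  refine HFG_of_HF hs'' hn1 J q'' hq'' i k ρ'' hρ'' j ?_
  refine step (repOf hs hn1 J q hq i (k - ((p ^ h - 1 : ℕ) : ℤ)) ρ' hρ')
    (repOf hs hn1 J q hq i k ρ hρ) (repOf hs'' hn1 J q'' hq'' i k ρ'' hρ'') ι π ?_ ?_ ?_ ?_ ?_
    (Cont (Fl hs q)) (Cont (Fl hs q)) (Cont (Fl hs'' q'')) ?_ ?_ ?_ ?_ j
    (HF_of_HFG hs hn1 J q hq i k ρ hρ j h1)
    (HF_of_HFG hs hn1 J q hq i (k - ((p ^ h - 1 : ℕ) : ℤ)) ρ' hρ' (j + 1) h2)
  · -- equivariance of ι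
    intro x m
    obtain ⟨r, rfl⟩ := hq m
    rw [repOf_apply, repOf_apply, hρ', hι0, hι0, ← map_smul, ← map_smul, hρ, ← sub_eq_zero,
      ← map_sub, hker, smul_eq_mul, smul_eq_mul, map_mul (Gn.pi (J x))]
    have h3 := cf_trans hF hA h hlt.le i k (J x)
    have h4 : lead F h * (cf i (k - ((p ^ h - 1 : ℕ) : ℤ)) (J x) * Gn.pi (J x) r) -
        cf i k (J x) * (Gn.pi (J x) (lead F h) * Gn.pi (J x) r) =
        -(Gn.pi (J x) r) * (cf i k (J x) * Gn.pi (J x) (lead F h) -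
          lead F h * cf i (k - ((p ^ h - 1 : ℕ) : ℤ)) (J x)) := by ring
    rw [h4]
    exact Ideal.mul_mem_left _ _ h3
  · intro x m
    obtain ⟨r, rfl⟩ := hq m
    rw [repOf_apply, repOf_apply, hρ, hπq, hπq, hρ'']
  · -- injectivity
    rw [injective_iff_map_eq_zero]
    exact hinj0
  · intro m
    obtain ⟨r, rfl⟩ := hq m
    rw [hι0, ← map_smul, hπq, hker'', smul_eq_mul]
    exact Ideal.mul_mem_right _ _ hv1
  · intro m hm
    obtain ⟨r, rfl⟩ := hq m
    rw [hπq, hker'', hsucc] at hm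
    obtain ⟨a, ha, b, hb, hab⟩ := Submodule.mem_sup.1 hm
    obtain ⟨c, rfl⟩ := Ideal.mem_span_singleton'.1 hb
    refine ⟨q c, ?_⟩
    rw [hι0, ← map_smul, ← sub_eq_zero, ← map_sub, hker, ← hab, smul_eq_mul]
    have h3 : lead F h * c - (a + c * lead F h) = -a := by ring
    rw [h3]
    exact neg_mem ha
  · -- the differential preserves continuity
    intro j' c hc
    refine dd_mem_Cont _ _ ?_ ?_ j' c hc
    · rintro K x _ ⟨r, hr, rfl⟩
      rw [repOf_apply, hρ]
      exact ⟨_, Ideal.mul_mem_left _ _ (pi_mem_pow hA n le_rfl K (J x) hr), rfl⟩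
    · intro K m
      obtain ⟨r, rfl⟩ := hq m
      filter_upwards [hcont (K + 1)] with x hx
      rw [repOf_apply, hρ, ← map_sub]
      refine ⟨_, ?_, rfl⟩
      have h3 := cf_sub_one hn1 i k (K + 1) (by omega) (J x) hx.1
      have h4 : cf i k (J x) * Gn.pi (J x) r - r =
          Gn.pi (J x) r * (cf i k (J x) - 1) + (Gn.pi (J x) r - r) := by ring
      rw [h4]
      exact Ideal.pow_le_pow_right (Nat.le_succ K)
        (Ideal.add_mem _ (Ideal.mul_mem_left _ _ h3) (hx.2 r))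
  · -- continuous lifts
    obtain ⟨σ, hσ1, hσ2⟩ := exists_section (LT.heightIdeal p n n) (LT.heightIdeal p n (h + 1))
      (prec hn1) (closed hn1 _)
    let τ : M'' → LT.E0 p n := fun m => σ (Ideal.Quotient.mk _ (Function.surjInv hq'' m))
    have hτ1 : ∀ m, q'' (τ m) = m := by
      intro m
      have h3 := Ideal.Quotient.eq.1 (hσ1 (Ideal.Quotient.mk _ (Function.surjInv hq'' m)))
      have h4 : q'' (τ m) = q'' (Function.surjInv hq'' m) := by
        rw [← sub_eq_zero, ← map_sub, hker'']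
        exact h3
      rw [h4]
      exact Function.surjInv_eq hq'' m
    have hτ2 : ∀ (K : ℕ) (m m' : M''), m - m' ∈ Fl hs'' q'' K →
        τ m - τ m' ∈ LT.heightIdeal p n n ^ K := by
      rintro K m m' ⟨r, hr, hrm⟩
      refine hσ2 K _ _ ?_
      have h3 : Function.surjInv hq'' m - Function.surjInv hq'' m' - r ∈
          LT.heightIdeal p n (h + 1) := by
        rw [← hker'', map_sub, map_sub, Function.surjInv_eq hq'', Function.surjInv_eq hq'', hrm,
          sub_self]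
      have h4 : Function.surjInv hq'' m - Function.surjInv hq'' m' =
        (Function.surjInv hq'' m - Function.surjInv hq'' m' - r) + r := by ring
      rw [h4]
      exact Submodule.add_mem_sup h3 hr
    intro j' c hc
    refine ⟨fun x => q (τ (c x)), ?_, ?_⟩
    · intro K x
      filter_upwards [hc K x] with y hy
      exact ⟨_, hτ2 K _ _ hy, map_sub q _ _⟩
    · funext x
      rw [mp_apply, hπq, hτ1]
  · intro j' c hc K x
    filter_upwards [hc K x] with y hy
    obtain ⟨r, hr, hrc⟩ := hy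
    rw [mp_apply, mp_apply, ← map_sub, ← hrc, hπq]
    exact ⟨r, hr, rfl⟩
  · -- embedding
    intro j' c
    constructor
    · intro hc K x
      obtain ⟨K', hK'⟩ := exists_emb (M := M) (LT.heightIdeal p n n) (lead F h) hinj0 K
      filter_upwards [hc K' x] with y hy
      rw [mem_Fl, ← mem_smul_top q hq]
      refine hK' _ ?_
      rw [mem_smul_top q hq, smul_sub]
      exact hy
    · intro hc K x
      filter_upwards [hc K x] with y hy
      obtain ⟨r, hr, hrc⟩ := hy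
      rw [mp_apply, mp_apply, ← map_sub, ← hrc, hι0, ← map_smul]
      exact ⟨_, Ideal.mul_mem_left _ _ hr, rfl⟩

/-- the levels `1 ≤ h ≤ n - 1`. -/
theorem levels (i : ℕ) (k0 : ℤ)
    (hall : ∀ j < n, ∀ k : ℤ, k0 - (p : ℤ) ^ (n - 1) < k → k ≤ k0 →
      St.HFG p n (fun (x : G) (r : LT.E0 p n) => cf i k (J x) * Gn.pi (J x) r) j)
    (h : ℕ) (hh : 1 ≤ h) (hlt : h < n) : ∀ (j : ℕ) (k : ℤ), j + h < n →
      k0 + (p : ℤ) ^ h ≤ k + (p : ℤ) ^ (n - 1) → k ≤ k0 →
      ∀ ρ : G → (LT.E0 p n ⧸ LT.heightIdeal p n h) → (LT.E0 p n ⧸ LT.heightIdeal p n h),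
        (∀ x r, ρ x (Submodule.mkQ _ r) = Submodule.mkQ _ (cf i k (J x) * Gn.pi (J x) r)) →
          St.HFG p n ρ j := by
  have hp2 : (2 : ℤ) ≤ p := by exact_mod_cast (Fact.out : p.Prime).two_le
  have hpp : ∀ h : ℕ, (1 : ℤ) ≤ (p : ℤ) ^ h := fun h => by
    exact_mod_cast Nat.one_le_pow _ _ (Fact.out : p.Prime).pos
  have hcast : ∀ h : ℕ, ((p ^ h - 1 : ℕ) : ℤ) = (p : ℤ) ^ h - 1 := fun h => by
    rw [Nat.cast_sub (Nat.one_le_pow _ _ (Fact.out : p.Prime).pos)]
    push_cast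
    rfl
  have hmk : ∀ h r, Submodule.mkQ (LT.heightIdeal p n h) r = 0 ↔ r ∈ LT.heightIdeal p n h := by
    intro h r
    rw [Submodule.mkQ_apply, Submodule.Quotient.mk_eq_zero]
  induction h, hh using Nat.le_induction with
  | base =>
    intro j k hj hk1 hk2 ρ hρ
    refine step_cyc hn1 hΓ hF hA J hcont 0 (by omega) (LinearMap.id) Function.surjective_id
      (fun r => ?_) (Submodule.mkQ _) (Submodule.mkQ_surjective _) (hmk _) i k
      (fun x r => cf i (k - ((p ^ 0 - 1 : ℕ) : ℤ)) (J x) * Gn.pi (J x) r)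
      (fun x r => cf i k (J x) * Gn.pi (J x) r) ρ (fun x r => rfl) (fun x r => rfl) hρ j
      (hall j (by omega) k (by rw [pow_one] at hk1; linarith) hk2)
      (hall (j + 1) (by omega) _ ?_ ?_)
    · rw [LT.heightIdeal, if_pos rfl]
      rfl
    · rw [pow_one] at hk1
      rw [hcast, pow_zero, sub_self, sub_zero]
      linarith
    · rw [hcast, pow_zero, sub_self, sub_zero]
      exact hk2
  | succ h hh ih =>
    intro j k hj hk1 hk2 ρ hρ
    have hex : ∀ k : ℤ, ∃ τ : G → (LT.E0 p n ⧸ LT.heightIdeal p n h) →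
        (LT.E0 p n ⧸ LT.heightIdeal p n h), ∀ x r, τ x (Submodule.mkQ _ r) =
          Submodule.mkQ _ (cf i k (J x) * Gn.pi (J x) r) := by
      intro k
      refine ⟨fun x m => Submodule.mkQ _ (cf i k (J x) * Gn.pi (J x)
        (Function.surjInv (Submodule.mkQ_surjective _) m)), fun x r => ?_⟩
      have h3 := Function.surjInv_eq (Submodule.mkQ_surjective (LT.heightIdeal p n h))
        (Submodule.mkQ _ r)
      rw [← sub_eq_zero, ← map_sub, hmk] at h3
      rw [← sub_eq_zero, ← map_sub, hmk, ← mul_sub, ← map_sub]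
      exact Ideal.mul_mem_left _ _ (pi_mem' hA h (by omega) (J x) h3)
    obtain ⟨τ, hτ⟩ := hex k
    obtain ⟨τ', hτ'⟩ := hex (k - ((p ^ h - 1 : ℕ) : ℤ))
    have h4 : (2 : ℤ) * (p : ℤ) ^ h ≤ (p : ℤ) ^ (h + 1) := by
      rw [pow_succ']
      exact mul_le_mul_of_nonneg_right hp2 (by have := hpp h; linarith)
    have h5 := hpp h
    refine step_cyc hn1 hΓ hF hA J hcont h (by omega) (Submodule.mkQ _)
      (Submodule.mkQ_surjective _) (hmk _) (Submodule.mkQ _) (Submodule.mkQ_surjective _) (hmk _)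
      i k τ' τ ρ hτ' hτ hρ j (ih (by omega) j k (by omega) (by linarith) hk2 τ hτ)
      (ih (by omega) (j + 1) _ (by omega) ?_ ?_ τ' hτ')
    · rw [hcast]
      linarith
    · rw [hcast]
      linarith

end

end Vale.Agent.P261.R2.H398
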