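import Vale.Agent.P261.R2.H398.D

/-!
# P261: the dévissage for the modules `π_{2k} E_n ⊗ ω^i` (helper398)
-/

namespace Vale.Agent.P261.R2.H398

open MvPowerSeries Vale.Agent.P217 Vale.Agent.P261 Vale.Agent.P261.R2.H932
  Vale.Agent.P261.R2.H823 Topology

variable {p n : ℕ} [Fact p.Prime]

theorem omegaTwist_eq {F : FormalGroup (LT.E0 p n)} {G : Type} [Group G] {a : G → St.Pair p n}
    (ha : St.IsFiniteIndex F a) (i : ℕ) (k : ℤ) (x : G) (r : LT.E0 p n) :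
    St.omegaTwist a i k x r = cf i k (jj ha x) * Gn.pi (jj ha x) r := by
  rw [St.omegaTwist, twist_eq ha, Gn.tw, cf, tk, mul_assoc]
  rfl

theorem devissage (Γ : FormalGroup (ZMod p)) (F : FormalGroup (LT.E0 p n)) (hn : 2 ≤ n)
    (hΓ : LT.IsHonda p n Γ) (hF : LT.IsUniversal p n Γ F) (hA : LT.HeightAdapted p n F)
    (G : Type) [Group G] [TopologicalSpace G] [ContinuousMul G] (a : G → St.Pair p n)
    (ha : St.IsFiniteIndex F a)
    (hcont : ∀ K, ∀ᶠ x in 𝓝 (1 : G), PowerSeries.coeff 1 (a x).g - 1 ∈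
      LT.heightIdeal p n n ^ K ∧ ∀ r, (a x).φ r - r ∈ LT.heightIdeal p n n ^ K)
    (i : ℕ) (k₀ : ℤ) (hall : ∀ j < n, ∀ k : ℤ, k₀ - p ^ (n - 1) < k → k ≤ k₀ →
      St.HFG p n (St.omegaTwist a i k) j)
    (ρ : G → LT.E0 p n ⧸ LT.heightIdeal p n (n - 1) → LT.E0 p n ⧸ LT.heightIdeal p n (n - 1))
    (hρ : ∀ x r, ρ x (Ideal.Quotient.mk _ r) = Ideal.Quotient.mk _ (St.omegaTwist a i k₀ x r)) :
    St.HFG p n ρ 0 := by
  have hp1 : 1 ≤ p := (Fact.out : p.Prime).one_lt.le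
  have hact : ∀ k : ℤ, St.omegaTwist a i k =
      fun (x : G) (r : LT.E0 p n) => cf i k (jj ha x) * Gn.pi (jj ha x) r := by
    intro k
    funext x r
    exact omegaTwist_eq ha i k x r
  refine levels (by omega) hΓ hF hA (jj ha) hcont i k₀ (fun j hj k hk1 hk2 => ?_) (n - 1)
    (by omega) (by omega) 0 k₀ (by omega) le_rfl le_rfl ρ (fun x r => ?_)
  · rw [← hact]
    exact hall j hj k hk1 hk2
  · have h1 := hρ x r
    rw [omegaTwist_eq ha] at h1
    exact h1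

end Vale.Agent.P261.R2.H398
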