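import Vale.Agent.P261.R2.H288.HFG
import Vale.Agent.P261.R2.H932.Transfer2
import Vale.Agent.P261.R2.H398.Stmt2

/-!
# P261: `H¹(G; π_{2k} E_n ⊗ ω^i)` is finite for `k ≠ 0` (helper398)
-/

namespace Vale.Agent.P261.R2.H398

open MvPowerSeries Vale.Agent.P217 Vale.Agent.P261 Vale.Agent.P261.R2.H932 Topology

variable {p n : ℕ} [Fact p.Prime] {Γ : FormalGroup (ZMod p)} {F : FormalGroup (LT.E0 p n)}

theorem torsionFree (hn1 : 1 ≤ n) : St.TorsionFree p n (LT.E0 p n) := by
  intro m hm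
  have hprime : (LT.heightIdeal p n 0).IsPrime := isPrime_heightIdeal hn1 0 (by omega)
  have h0 : LT.heightIdeal p n 0 = ⊥ := by rw [LT.heightIdeal, if_pos rfl]
  rw [h0] at hprime
  have h1 : (p : LT.E0 p n) * m ∈ (⊥ : Ideal (LT.E0 p n)) := hm
  rcases hprime.mem_or_mem h1 with h2 | h2
  · exact absurd ((Submodule.mem_bot _).1 h2) H86.p_ne_zero
  · exact (Submodule.mem_bot _).1 h2

section

variable {G : Type} [Group G] {a : G → St.Pair p n}

/-- the central element. -/
theorem omega_central (hF : LT.IsUniversal p n Γ F) (ha : St.IsFiniteIndex F a) (i : ℕ) (k : ℤ)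
    (hk : k ≠ 0) : St.CentralScalar p n (St.omegaTwist a i k) := by
  have hp : 1 < p := (Fact.out : p.Prime).one_lt
  have hpd : ¬ p ∣ 1 + p := by
    intro h
    have h1 : p ∣ 1 := (Nat.dvd_add_left (dvd_refl p)).1 h
    exact (Fact.out : p.Prime).one_lt.ne' (Nat.dvd_one.1 h1)
  obtain ⟨z, hz1, hz2, -, hz4⟩ := Gn.central (F := F) hF.1 (1 + p) hpd
  obtain ⟨j, hj1, -, hj⟩ := (jj ha).range.exists_pow_mem_of_index_ne_zero (jj_index ha) z
  obtain ⟨y, hy⟩ := hj
  have hpi : Gn.pi (z ^ j) = 1 := by rw [map_pow, hz1, one_pow]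
  have ht : Gn.t (z ^ j) = (((1 + p) ^ j : ℕ) : LT.E0 p n) := by
    rw [Gn.t_pow hz1, hz2, Nat.cast_pow]
  have hu : IsUnit (((1 + p) ^ j : ℕ) : ℤ_[p]) := by
    rw [Nat.cast_pow]
    refine IsUnit.pow j ?_
    refine IsLocalRing.isUnit_of_mem_nonunits_one_sub_self _ ?_
    rw [Nat.cast_add, Nat.cast_one, sub_add_cancel_left]
    intro h
    exact PadicInt.p_nonunit (IsUnit.neg_iff _ |>.1 h)
  have hmap : Units.map ((St.zp p n : ℤ_[p] →+* LT.E0 p n) : ℤ_[p] →* LT.E0 p n) hu.unit =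
      (Gn.isUnit_t (z ^ j)).unit := by
    apply Units.ext
    show St.zp p n (((1 + p) ^ j : ℕ) : ℤ_[p]) = Gn.t (z ^ j)
    rw [ht, map_natCast]
  have hw : LT.red p n (PowerSeries.coeff 1 (a y).g) = 1 := by
    have h1 : PowerSeries.coeff 1 (a y).g = Gn.t (z ^ j) := by
      rw [← jj_t ha y, hy]
    rw [h1, ht, map_natCast, Nat.cast_pow, Nat.cast_add, Nat.cast_one,
      CharP.cast_eq_zero, add_zero, one_pow]
  refine ⟨y, fun x => jj_injective ha ?_, ((hu.unit ^ k : ℤ_[p]ˣ) : ℤ_[p]), ?_, fun m => ?_⟩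
  · rw [map_mul, map_mul, hy]
    have h : Commute z (jj ha x) := hz4 (jj ha x)
    exact (h.pow_left j).eq
  · intro h
    have h1 : hu.unit ^ k = 1 := Units.ext h
    have h2 : hu.unit ^ k.natAbs = 1 := by
      obtain ⟨m, rfl | rfl⟩ := k.eq_nat_or_neg
      · rw [zpow_natCast] at h1
        rw [Int.natAbs_natCast, h1]
      · rw [zpow_neg, zpow_natCast, inv_eq_one] at h1
        rw [Int.natAbs_neg, Int.natAbs_natCast, h1]
    have h3 := congrArg Units.val h2
    rw [Units.val_pow_eq_pow_val, IsUnit.unit_spec, Units.val_one, ← Nat.cast_pow, ← pow_mul,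
      Nat.cast_eq_one] at h3
    have ha' : 0 < j * k.natAbs := Nat.mul_pos hj1 (Int.natAbs_pos.2 hk)
    have hL : 1 < (1 + p) ^ (j * k.natAbs) := Nat.one_lt_pow ha'.ne' (by omega)
    exact hL.ne' h3
  · rw [St.omegaTwist, hw, map_one, map_one, one_pow, one_mul, twist_eq ha, hy, Gn.tw, hpi,
      ← hmap, ← map_zpow]
    rfl

end

section

variable {G : Type} [Group G] [TopologicalSpace G] {M : Type} [AddCommGroup M]
  [Module (LT.E0 p n) M] {a : G → St.Pair p n} {ρ : G → M → M}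

theorem HFG_of_H1Finite (h : St.IsMoravaModule a ρ) [ContinuousMul G]
    (hA : LT.HeightAdapted p n F) (ha : St.IsFiniteIndex F a) (hH : St.H1Finite p n ρ) :
    St.HFG p n ρ 0 := by
  classical
  obtain ⟨S, hS, hSZ, hall⟩ := hH
  let T := hS.toFinset
  refine ⟨T.card, fun l y => ((T.equivFin.symm l : T) : G → M) (y 0), fun l => ?_,
    fun c hc1 hc2 => ?_⟩
  · exact H288.toCochain hA ha h (hSZ _ (hS.mem_toFinset.1 (T.equivFin.symm l).2))
  · obtain ⟨s, hs, m, hm⟩ := hall _ (H288.ofCochain h hc1 hc2)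
    have hsT : s ∈ T := hS.mem_toFinset.2 hs
    refine ⟨fun l => if T.equivFin ⟨s, hsT⟩ = l then 1 else 0, fun _ => m, fun k x => ?_, ?_⟩
    · refine Filter.Eventually.of_forall fun y => ?_
      rw [sub_self]
      exact Submodule.zero_mem _
    · funext y
      have h1 : y = fun _ => y 0 := by
        funext l
        exact congrArg y (Subsingleton.elim (α := Fin 1) l 0)
      have h2 := hm (y 0)
      rw [Pi.sub_apply, ← h1, sub_eq_iff_eq_add] at h2
      rw [Pi.add_apply, H288.coboundary_zero, Finset.sum_apply,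
        Finset.sum_eq_single (T.equivFin ⟨s, hsT⟩)]
      · rw [Pi.smul_apply]
        dsimp only
        rw [if_pos rfl, map_one, one_smul, Equiv.symm_apply_apply, h2, add_comm]
      · intro l _ hl
        rw [Pi.smul_apply]
        dsimp only
        rw [if_neg (Ne.symm hl), map_zero, zero_smul]
      · intro hl
        exact absurd (Finset.mem_univ _) hl

end

/-- `H¹(G; π_{2k} E_n ⊗ ω^i)` is finite, in particular finitely generated, for `k ≠ 0`. -/
theorem hfg_zero (hn1 : 1 ≤ n) (hΓ : LT.IsHonda p n Γ) (hF : LT.IsUniversal p n Γ F)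
    (hA : LT.HeightAdapted p n F) {G : Type} [Group G] [TopologicalSpace G] [ContinuousMul G]
    {a : G → St.Pair p n} (ha : St.IsFiniteIndex F a) (i : ℕ) (k : ℤ)
    (h : St.IsMoravaModule a (St.omegaTwist a i k)) (hk : k ≠ 0) :
    St.HFG p n (St.omegaTwist a i k) 0 :=
  HFG_of_H1Finite h hA ha
    (h1fin' hn1 hΓ hF hA ha h (torsionFree hn1) (omega_central hF ha i k hk))

end Vale.Agent.P261.R2.H398
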